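import Mathlib

/-!
Abstract one-dimensional comparison lemma behind the isoperimetric inequality for centred balls
in rotationally symmetric manifolds.
-/

namespace Vale.Agent.Lib.P219

open Set

/-- primitive of a continuous function has the expected derivative -/
theorem hasDerivAt_primitive {h : ℝ → ℝ} (hh : Continuous h) (x : ℝ) :
    HasDerivAt (fun u => ∫ t in (0:ℝ)..u, h t) (h x) x :=
  intervalIntegral.integral_hasDerivAt_right (hh.intervalIntegrable _ _)
    (hh.stronglyMeasurableAtFilter _ _) hh.continuousAt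

/-- The abstract comparison statement.  `s` is the model warping function, `f` the warping function,
`σ` the radius-matching map with `s (σ t) = f t` and `σ' ≥ 1`. -/
theorem abstract_comparison (m : ℕ) (s f σ σ' : ℝ → ℝ)
    (hs : Continuous s) (hspos : ∀ t, 0 < t → 0 < s t) (hsmono : StrictMonoOn s (Ici 0))
    (hf : Continuous f) (hfpos : ∀ t, 0 < t → 0 < f t)
    (hσ : ∀ t, HasDerivAt σ (σ' t) t) (hσ1 : ∀ t, 0 < t → 1 ≤ σ' t) (hσ0 : σ 0 = 0)
    (hsf : ∀ t, 0 ≤ t → s (σ t) = f t) (r : ℝ) (hr : 0 < r) :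
    ∃ ρ : ℝ, 0 ≤ ρ ∧ (∫ t in (0:ℝ)..ρ, s t ^ m) = (∫ t in (0:ℝ)..r, f t ^ m) ∧
      (∀ ρ' : ℝ, 0 ≤ ρ' → (∫ t in (0:ℝ)..ρ', s t ^ m) = (∫ t in (0:ℝ)..r, f t ^ m) → ρ' = ρ) ∧
      s ρ ≤ f r ∧ (s ρ = f r → ∀ t ∈ Icc 0 r, f t = s t) := by
  have hsm : Continuous (fun t => s t ^ m) := hs.pow m
  have hfm : Continuous (fun t => f t ^ m) := hf.pow m
  set Vs : ℝ → ℝ := fun u => ∫ t in (0:ℝ)..u, s t ^ m with hVs
  set Vf : ℝ → ℝ := fun u => ∫ t in (0:ℝ)..u, f t ^ m with hVf
  have dVs : ∀ x, HasDerivAt Vs (s x ^ m) x := fun x => hasDerivAt_primitive hsm x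
  have dVf : ∀ x, HasDerivAt Vf (f x ^ m) x := fun x => hasDerivAt_primitive hfm x
  have cVs : Continuous Vs := continuous_iff_continuousAt.2 (fun x => (dVs x).continuousAt)
  have Vs_mono : StrictMonoOn Vs (Ici 0) := by
    apply strictMonoOn_of_deriv_pos (convex_Ici 0) cVs.continuousOn
    intro x hx
    rw [interior_Ici] at hx
    rw [(dVs x).deriv]
    exact pow_pos (hspos x hx) m
  -- σ - id is monotone on [0, ∞)
  have cσ : Continuous σ := continuous_iff_continuousAt.2 (fun x => (hσ x).continuousAt)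
  have hmono : MonotoneOn (fun t => σ t - t) (Ici 0) := by
    apply monotoneOn_of_deriv_nonneg (convex_Ici 0) (cσ.sub continuous_id).continuousOn
    · intro x _
      exact ((hσ x).sub (hasDerivAt_id x)).differentiableAt.differentiableWithinAt
    · intro x hx
      rw [interior_Ici] at hx
      rw [((hσ x).sub (hasDerivAt_id x)).deriv]
      have := hσ1 x hx
      linarith
  have hσge : ∀ t, 0 ≤ t → t ≤ σ t := by
    intro t ht
    have := hmono (mem_Ici.2 (le_refl 0)) (mem_Ici.2 ht) ht
    simp only [hσ0] at this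
    linarith
  -- g = Vs ∘ σ - Vf
  set g : ℝ → ℝ := fun t => Vs (σ t) - Vf t with hg
  have dg : ∀ t, HasDerivAt g (s (σ t) ^ m * σ' t - f t ^ m) t := by
    intro t
    exact ((dVs (σ t)).comp t (hσ t)).sub (dVf t)
  have cg : Continuous g := continuous_iff_continuousAt.2 (fun x => (dg x).continuousAt)
  have gmono : MonotoneOn g (Ici 0) := by
    apply monotoneOn_of_deriv_nonneg (convex_Ici 0) cg.continuousOn
    · intro x _
      exact (dg x).differentiableAt.differentiableWithinAt
    · intro x hx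
      rw [interior_Ici] at hx
      rw [(dg x).deriv, hsf x (le_of_lt hx)]
      have h1 := hσ1 x hx
      have h2 : 0 ≤ f x ^ m := (pow_pos (hfpos x hx) m).le
      nlinarith
  have g0 : g 0 = 0 := by
    simp [hg, hVs, hVf, hσ0]
  have gr : 0 ≤ g r := by
    have := gmono (mem_Ici.2 (le_refl 0)) (mem_Ici.2 hr.le) hr.le
    rwa [g0] at this
  have hVf_nonneg : 0 ≤ Vf r := by
    apply intervalIntegral.integral_nonneg hr.le
    intro t ht
    rcases eq_or_lt_of_le ht.1 with h | h
    · rw [← h, ← hsf 0 (le_refl 0), hσ0]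
      have : 0 ≤ s 0 := by
        have hlim : Filter.Tendsto s (nhdsWithin 0 (Ioi 0)) (nhds (s 0)) :=
          (hs.continuousAt).tendsto.mono_left nhdsWithin_le_nhds
        apply ge_of_tendsto hlim
        filter_upwards [self_mem_nhdsWithin] with x hx
        exact (hspos x hx).le
      exact pow_nonneg this m
    · exact (pow_pos (hfpos t h) m).le
  have hσr : 0 ≤ σ r := le_trans hr.le (hσge r hr.le)
  have Vs0 : Vs 0 = 0 := by simp [hVs]
  -- existence of ρ by the intermediate value theorem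
  obtain ⟨ρ, hρ, hρV⟩ : ∃ ρ ∈ Icc 0 (σ r), Vs ρ = Vf r := by
    have := intermediate_value_Icc hσr cVs.continuousOn
    apply this
    constructor
    · rw [Vs0]; exact hVf_nonneg
    · have : g r = Vs (σ r) - Vf r := rfl
      linarith
  refine ⟨ρ, hρ.1, hρV, ?_, ?_, ?_⟩
  · intro ρ' h0 hV
    exact Vs_mono.injOn (mem_Ici.2 h0) (mem_Ici.2 hρ.1) (hV.trans hρV.symm)
  · rw [← hsf r hr.le]
    exact hsmono.monotoneOn (mem_Ici.2 hρ.1) (mem_Ici.2 hσr) hρ.2
  · intro heq
    rw [← hsf r hr.le] at heq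
    have hρσ : ρ = σ r := hsmono.injOn (mem_Ici.2 hρ.1) (mem_Ici.2 hσr) heq
    have gr0 : g r = 0 := by
      have : g r = Vs (σ r) - Vf r := rfl
      rw [this, ← hρσ, hρV]; ring
    -- g vanishes on [0, r]
    have gzero : ∀ t ∈ Icc 0 r, g t = 0 := by
      intro t ht
      have h1 := gmono (mem_Ici.2 (le_refl 0)) (mem_Ici.2 ht.1) ht.1
      have h2 := gmono (mem_Ici.2 ht.1) (mem_Ici.2 hr.le) ht.2
      rw [g0] at h1; rw [gr0] at h2
      linarith
    -- hence σ' = 1 on (0, r)
    have hσ'1 : ∀ t ∈ Ioo 0 r, σ' t = 1 := by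
      intro t ht
      have hev : g =ᶠ[nhds t] fun _ => (0:ℝ) := by
        filter_upwards [Ioo_mem_nhds ht.1 ht.2] with x hx
        exact gzero x ⟨hx.1.le, hx.2.le⟩
      have hd0 : HasDerivAt g 0 t := (hasDerivAt_const t (0:ℝ)).congr_of_eventuallyEq hev
      have huniq := (dg t).unique hd0
      rw [hsf t ht.1.le] at huniq
      have hpos : 0 < f t ^ m := pow_pos (hfpos t ht.1) m
      have : f t ^ m * (σ' t - 1) = 0 := by linarith
      rcases mul_eq_zero.1 this with h | h
      · exact absurd h hpos.ne'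
      · linarith
    -- so σ t = t on [0, r]
    have hanti : AntitoneOn (fun t => σ t - t) (Icc 0 r) := by
      apply antitoneOn_of_deriv_nonpos (convex_Icc 0 r) (cσ.sub continuous_id).continuousOn
      · intro x _
        exact ((hσ x).sub (hasDerivAt_id x)).differentiableAt.differentiableWithinAt
      · intro x hx
        rw [interior_Icc] at hx
        rw [((hσ x).sub (hasDerivAt_id x)).deriv, hσ'1 x hx]
        simp
    intro t ht
    have h1 := hanti (left_mem_Icc.2 hr.le) ht ht.1
    simp only [hσ0] at h1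
    have h2 := hσge t ht.1
    have : σ t = t := by linarith
    rw [← hsf t ht.1, this]

end Vale.Agent.Lib.P219
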