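import Mathlib

/-!
Definitions for the model isoperimetric profile and for centred geodesic balls of rotationally
symmetric manifolds `dr^2 + f(r)^2 g_{S^{n-1}}` (problem P219).
-/

namespace Vale.Agent.Lib.P219

/-- `sn_b(r) = r` if `b = 0` and `sinh (b r) / b` otherwise. -/
noncomputable def sn (b r : ℝ) : ℝ := if b = 0 then r else Real.sinh (b * r) / b

/-- `ω_n`, the volume of the Euclidean unit ball of `ℝ^n`. -/
noncomputable def omega (n : ℕ) : ℝ :=
  (MeasureTheory.volume (Metric.ball (0 : EuclideanSpace ℝ (Fin n)) 1)).toReal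

/-- Boundary area `n ω_n sn_b(r)^(n-1)` of a geodesic ball of radius `r` in the space form of
curvature `-b^2`. -/
noncomputable def modelArea (n : ℕ) (b r : ℝ) : ℝ := n * omega n * sn b r ^ (n - 1)

/-- Volume `n ω_n ∫_0^r sn_b(t)^(n-1) dt` of a geodesic ball of radius `r` in the space form. -/
noncomputable def modelVol (n : ℕ) (b r : ℝ) : ℝ :=
  n * omega n * ∫ t in (0:ℝ)..r, sn b t ^ (n - 1)

/-- The model isoperimetric profile: area of the model ball whose volume is `V`. -/
noncomputable def modelProfile (n : ℕ) (b V : ℝ) : ℝ :=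
  modelArea n b (Function.invFunOn (modelVol n b) (Set.Ici 0) V)

/-- `f` is the warping function of a rotationally symmetric metric `dr^2 + f(r)^2 g_{S^{n-1}}` on
`ℝ^n` whose radial sectional curvature `-f''/f` is at most `-b^2`. -/
structure IsWarping (b : ℝ) (f : ℝ → ℝ) : Prop where
  smooth : ContDiff ℝ 2 f
  zero : f 0 = 0
  deriv_zero : deriv f 0 = 1
  pos : ∀ r, 0 < r → 0 < f r
  curv : ∀ r, 0 < r → -(deriv (deriv f) r) / f r ≤ -b ^ 2

/-- Boundary area of the geodesic ball of radius `r` about the pole of `dr^2 + f^2 g_{S^{n-1}}`. -/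
noncomputable def ballArea (n : ℕ) (f : ℝ → ℝ) (r : ℝ) : ℝ := n * omega n * f r ^ (n - 1)

/-- Volume of the geodesic ball of radius `r` about the pole of `dr^2 + f^2 g_{S^{n-1}}`. -/
noncomputable def ballVol (n : ℕ) (f : ℝ → ℝ) (r : ℝ) : ℝ :=
  n * omega n * ∫ t in (0:ℝ)..r, f t ^ (n - 1)

end Vale.Agent.Lib.P219
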