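import Vale.Agent.Lib.P219.Defs
import Vale.Agent.Lib.P219.Abstract

namespace Vale.Agent.Lib.P219

open Set

variable {b : ℝ} {f : ℝ → ℝ}

theorem IsWarping.hasDerivAt (h : IsWarping b f) (t : ℝ) : HasDerivAt f (deriv f t) t :=
  (h.smooth.differentiable (by norm_num) t).hasDerivAt

theorem IsWarping.hasDerivAt2 (h : IsWarping b f) (t : ℝ) :
    HasDerivAt (deriv f) (deriv (deriv f) t) t :=
  (h.smooth.differentiable_deriv_two t).hasDerivAt

theorem IsWarping.continuous (h : IsWarping b f) : Continuous f := h.smooth.continuous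

theorem IsWarping.continuous_deriv (h : IsWarping b f) : Continuous (deriv f) :=
  h.smooth.continuous_deriv (by norm_num)

theorem IsWarping.second (h : IsWarping b f) (t : ℝ) (ht : 0 < t) :
    b ^ 2 * f t ≤ deriv (deriv f) t := by
  have h1 := h.curv t ht
  have hp := h.pos t ht
  rw [div_le_iff₀ hp] at h1
  linarith

theorem IsWarping.one_le_deriv (h : IsWarping b f) (t : ℝ) (ht : 0 ≤ t) : 1 ≤ deriv f t := by
  have hm : MonotoneOn (deriv f) (Ici 0) := by
    apply monotoneOn_of_deriv_nonneg (convex_Ici 0) h.continuous_deriv.continuousOn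
    · intro x _
      exact (h.hasDerivAt2 x).differentiableAt.differentiableWithinAt
    · intro x hx
      rw [interior_Ici] at hx
      have h1 := h.second x hx
      have h2 := h.pos x hx
      have : 0 ≤ b ^ 2 * f x := by positivity
      linarith
  have := hm (mem_Ici.2 (le_refl 0)) (mem_Ici.2 ht) ht
  rwa [h.deriv_zero] at this

theorem IsWarping.energy (h : IsWarping b f) (t : ℝ) (ht : 0 ≤ t) :
    1 + b ^ 2 * f t ^ 2 ≤ deriv f t ^ 2 := by
  have hd : ∀ x, HasDerivAt (fun x => deriv f x ^ 2 - b ^ 2 * f x ^ 2)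
      (2 * deriv f x * deriv (deriv f) x - b ^ 2 * (2 * f x * deriv f x)) x := by
    intro x
    have h1 : HasDerivAt (fun x => deriv f x ^ 2) (2 * deriv f x * deriv (deriv f) x) x := by
      have := (h.hasDerivAt2 x).mul (h.hasDerivAt2 x)
      have e : (fun x => deriv f x ^ 2) = (deriv f * deriv f) := by
        funext y; simp [pow_two]
      rw [e, show 2 * deriv f x * deriv (deriv f) x
        = deriv (deriv f) x * deriv f x + deriv f x * deriv (deriv f) x by ring]
      exact this
    have h2 : HasDerivAt (fun x => f x ^ 2) (2 * f x * deriv f x) x := by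
      have := (h.hasDerivAt x).mul (h.hasDerivAt x)
      have e : (fun x => f x ^ 2) = (f * f) := by
        funext y; simp [pow_two]
      rw [e, show 2 * f x * deriv f x = deriv f x * f x + f x * deriv f x by ring]
      exact this
    exact h1.sub (h2.const_mul (b ^ 2))
  have hm : MonotoneOn (fun x => deriv f x ^ 2 - b ^ 2 * f x ^ 2) (Ici 0) := by
    apply monotoneOn_of_deriv_nonneg (convex_Ici 0)
    · exact (continuous_iff_continuousAt.2 (fun x => (hd x).continuousAt)).continuousOn
    · intro x _
      exact (hd x).differentiableAt.differentiableWithinAt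
    · intro x hx
      rw [interior_Ici] at hx
      rw [(hd x).deriv]
      have h1 := h.second x hx
      have h2 := h.one_le_deriv x hx.le
      have : 0 ≤ deriv f x * (deriv (deriv f) x - b ^ 2 * f x) :=
        mul_nonneg (by linarith) (by linarith)
      nlinarith
  have := hm (mem_Ici.2 (le_refl 0)) (mem_Ici.2 ht) ht
  simp only [h.deriv_zero, h.zero] at this
  nlinarith

theorem sn_zero_left (t : ℝ) : sn 0 t = t := by simp [sn]

theorem sn_of_ne (hb : b ≠ 0) (t : ℝ) : sn b t = Real.sinh (b * t) / b := by simp [sn, hb]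

theorem continuous_sn (b : ℝ) : Continuous (sn b) := by
  by_cases hb : b = 0
  · subst hb
    have : sn 0 = id := by funext t; simp [sn]
    rw [this]; exact continuous_id
  · have : sn b = fun t => Real.sinh (b * t) / b := by funext t; simp [sn, hb]
    rw [this]
    fun_prop

theorem sn_pos (hb : 0 ≤ b) (t : ℝ) (ht : 0 < t) : 0 < sn b t := by
  rcases eq_or_lt_of_le hb with h | h
  · rw [← h, sn_zero_left]; exact ht
  · rw [sn_of_ne h.ne']
    apply div_pos _ h
    rw [Real.sinh_pos_iff]
    positivity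

theorem sn_strictMono (hb : 0 ≤ b) : StrictMono (sn b) := by
  rcases eq_or_lt_of_le hb with h | h
  · intro x y hxy
    rw [← h, sn_zero_left, sn_zero_left]; exact hxy
  · intro x y hxy
    rw [sn_of_ne h.ne', sn_of_ne h.ne']
    apply div_lt_div_of_pos_right _ h
    apply Real.sinh_strictMono
    nlinarith

/-- the one-dimensional statement for warping functions -/
theorem warped_comparison (hb : 0 ≤ b) (h : IsWarping b f) (m : ℕ) (r : ℝ) (hr : 0 < r) :
    ∃ ρ : ℝ, 0 ≤ ρ ∧ (∫ t in (0:ℝ)..ρ, sn b t ^ m) = (∫ t in (0:ℝ)..r, f t ^ m) ∧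
      (∀ ρ' : ℝ, 0 ≤ ρ' → (∫ t in (0:ℝ)..ρ', sn b t ^ m) = (∫ t in (0:ℝ)..r, f t ^ m) → ρ' = ρ) ∧
      sn b ρ ≤ f r ∧ (sn b ρ = f r → ∀ t ∈ Icc 0 r, f t = sn b t) := by
  rcases eq_or_lt_of_le hb with hb0 | hbpos
  · -- flat model
    apply abstract_comparison m (sn b) f f (deriv f) (continuous_sn b) (sn_pos hb)
      ((sn_strictMono hb).strictMonoOn _) h.continuous h.pos h.hasDerivAt
      (fun t ht => h.one_le_deriv t ht.le) h.zero _ r hr
    intro t _
    rw [← hb0, sn_zero_left]
  · apply abstract_comparison m (sn b) f (fun t => Real.arsinh (b * f t) / b)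
      (fun t => (Real.sqrt (1 + (b * f t) ^ 2))⁻¹ * (b * deriv f t) / b)
      (continuous_sn b) (sn_pos hb)
      ((sn_strictMono hb).strictMonoOn _) h.continuous h.pos _ _ _ _ r hr
    · intro t
      have h1 := (h.hasDerivAt t).const_mul b
      have h2 := (Real.hasDerivAt_arsinh (b * f t)).comp t h1
      exact h2.div_const b
    · intro t ht
      have he := h.energy t ht.le
      have hd := h.one_le_deriv t ht.le
      have hsq : Real.sqrt (1 + (b * f t) ^ 2) ≤ deriv f t := by
        rw [show deriv f t = Real.sqrt (deriv f t ^ 2) from (Real.sqrt_sq (by linarith)).symm]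
        apply Real.sqrt_le_sqrt
        nlinarith
      have hpos : 0 < Real.sqrt (1 + (b * f t) ^ 2) := by
        apply Real.sqrt_pos.2; positivity
      rw [le_div_iff₀ hbpos, one_mul, inv_mul_eq_div, le_div_iff₀ hpos]
      nlinarith
    · simp [h.zero]
    · intro t _
      rw [sn_of_ne hbpos.ne']
      rw [mul_div_cancel₀ _ hbpos.ne', Real.sinh_arsinh]
      field_simp

theorem omega_pos (n : ℕ) : 0 < omega n := by
  unfold omega
  apply ENNReal.toReal_pos
  · exact (Metric.measure_ball_pos _ _ one_pos).ne'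
  · exact MeasureTheory.measure_ball_lt_top.ne

/-- The sharp isoperimetric inequality, with rigidity, for centred balls. -/
theorem centred_ball (n : ℕ) (hn : 2 ≤ n) (hb : 0 ≤ b) (h : IsWarping b f) (r : ℝ) (hr : 0 < r) :
    modelProfile n b (ballVol n f r) ≤ ballArea n f r ∧
      (modelProfile n b (ballVol n f r) = ballArea n f r → ∀ t ∈ Icc 0 r, f t = sn b t) := by
  obtain ⟨ρ, hρ0, hρV, huniq, hle, hrig⟩ := warped_comparison hb h (n - 1) r hr
  have hc : 0 < (n : ℝ) * omega n := by
    apply mul_pos _ (omega_pos n)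
    exact_mod_cast (by omega : 0 < n)
  have hex : ∃ a ∈ Ici (0:ℝ), modelVol n b a = ballVol n f r :=
    ⟨ρ, hρ0, by unfold modelVol ballVol; rw [hρV]⟩
  obtain ⟨hmem, hval⟩ := Function.invFunOn_pos hex
  have hinv : Function.invFunOn (modelVol n b) (Ici 0) (ballVol n f r) = ρ := by
    apply huniq _ hmem
    unfold modelVol ballVol at hval
    exact mul_left_cancel₀ hc.ne' hval
  have hsn0 : 0 ≤ sn b ρ := by
    rcases eq_or_lt_of_le hρ0 with h0 | h0
    · rw [← h0]
      by_cases hb0 : b = 0 <;> simp [sn, hb0]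
    · exact (sn_pos hb ρ h0).le
  unfold modelProfile
  rw [hinv]
  unfold modelArea ballArea
  constructor
  · apply mul_le_mul_of_nonneg_left _ hc.le
    exact pow_le_pow_left₀ hsn0 hle _
  · intro heq
    apply hrig
    have h1 : sn b ρ ^ (n - 1) = f r ^ (n - 1) := mul_left_cancel₀ hc.ne' heq
    exact (pow_left_inj₀ hsn0 (h.pos r hr).le (by omega)).1 h1

end Vale.Agent.Lib.P219
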